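import Vale.Agent.P192.Pump.Final
import Vale.Agent.P192.Pump.TreeT
import Vale.Agent.P192.Embed

namespace Vale.Agent.Results.P192.A00_Combined

open Vale.Agent.P192.Pump

/-- Conjunction of the results on finitely presented periodic groups `G` (finite generating set
`S`): (0) no thin ends in any `G`-set; (1) sphere sizes of every infinite Schreier graph tend to
infinity; (2) a faithful action with uniformly linear ball growth forces `G` finite; (3) groups of
bounded-displacement permutations over a bounded-degree tree are finite; (4) subgroups of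
topological full groups of a single homeomorphism are finite; (5) every finitely presented periodic
group embeds in a 2-generated one. -/
theorem result :
    (∀ (G : Type) [Group G], Group.IsFinitelyPresented G → IsMulTorsion G →
      ∀ S : Finset G, Subgroup.closure (S : Set G) = ⊤ →
      ∀ (X : Type) [MulAction G X] (x : X) (B : ℕ → Set X) (C : ℕ),
      (∀ i, B (i + 1) ⊆ B i) → ⋂ i, B i = ∅ → (∀ i, ∃ g : G, g • x ∈ B i) →
      ∃ i, (C : ℕ∞) < {y | y ∈ B i ∧ ∃ s ∈ S, s • y ∉ B i ∨ s⁻¹ • y ∉ B i}.encard) ∧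
    (∀ (G : Type) [Group G], Group.IsFinitelyPresented G → IsMulTorsion G →
      ∀ S : Finset G, Subgroup.closure (S : Set G) = ⊤ →
      ∀ (X : Type) [MulAction G X] (x : X), (MulAction.orbit G x).Infinite →
      ∀ C : ℕ, ∃ r₀, ∀ r ≥ r₀,
        (C : ℕ∞) < (sball (S : Set G) x (r + 1) \ sball (S : Set G) x r).encard) ∧
    (∀ (G : Type) [Group G], Group.IsFinitelyPresented G → IsMulTorsion G →
      ∀ S : Finset G, Subgroup.closure (S : Set G) = ⊤ →
      ∀ (X : Type) [MulAction G X] [FaithfulSMul G X] (C : ℕ),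
      (∀ (x : X) (r : ℕ), (sball (S : Set G) x r).encard ≤ C * (r + 1)) → Finite G) ∧
    (∀ (V X : Type) (T : SimpleGraph V) (Δ C : ℕ) (f : X → V), T.IsTree →
      (∀ v, ∃ t : Finset V, t.card ≤ Δ ∧ ∀ w, T.Adj v w → w ∈ t) →
      (∀ v, ∃ t : Finset X, t.card ≤ C ∧ ∀ x, f x = v → x ∈ t) →
      ∀ S : Subgroup (Equiv.Perm X), (∀ g ∈ S, ∃ N : ℕ, ∀ x, T.dist (f x) (f (g x)) ≤ N) →
        Group.IsFinitelyPresented S → IsMulTorsion S → Finite S) ∧
    (∀ (X : Type) [TopologicalSpace X] (φ : X ≃ₜ X) (S : Subgroup (X ≃ₜ X)),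
      (∀ g ∈ S, InFullGroup φ g) →
      Group.IsFinitelyPresented S → IsMulTorsion S → Finite S) ∧
    (∀ (G : Type) [Group G], Group.IsFinitelyPresented G → IsMulTorsion G →
      ∃ (H : Type) (_ : Group H), Group.IsFinitelyPresented H ∧ IsMulTorsion H ∧
        (∃ a b : H, Subgroup.closure {a, b} = ⊤) ∧ ∃ f : G →* H, Function.Injective f) := by
  refine ⟨?_, ?_, ?_, ?_, ?_, ?_⟩
  · intro G _ hfp htors S hS X _ x B C hanti hinter hmeet
    exact thm_thin_end G hfp htors S hS X x B C hanti hinter hmeet
  · intro G _ hfp htors S hS X _ x hinf C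
    exact thm_spheres G hfp htors S hS X x hinf C
  · intro G _ hfp htors S hS X _ _ C hlin
    exact thm_linear G hfp htors S hS X C hlin
  · intro V X T Δ C f hT hdeg hC S hb hfp htors
    exact torsion_tree_fibred V X T hT Δ hdeg C f hC S hfp htors S.subtype
      Subtype.val_injective (fun g => hb g.1 g.2)
  · intro X _ φ S hSφ hfp htors
    exact thm_full_group X φ S hSφ hfp htors
  · intro G _ hfp htors
    exact Vale.Agent.P192.embed_two_generated G htors

end Vale.Agent.Results.P192.A00_Combined
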