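import Vale.Agent.P192.Pump.Final

namespace Vale.Agent.Results.P192.A0_ThinSchreier

open Vale.Agent.P192.Pump

/-- Let `G` be a finitely presented periodic group with finite generating set `S`.
(0) No thin ends: if `B 0 ⊇ B 1 ⊇ ...` are subsets of a `G`-set with empty intersection, all
meeting the orbit of one point, then the number of boundary points of `B i` (points of `B i`
moved out of `B i` by an element of `S` or its inverse) is unbounded.
(1) In every infinite orbit of every action of `G` the sizes of the spheres of the Schreier graph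
tend to infinity.
(2) If `G` acts faithfully on a set and all balls of radius `r` of the Schreier graph have at most
`C (r + 1)` points, then `G` is finite.
(3) Every finitely presented periodic group of permutations of a set `X` carrying a
boundedly-finite-to-one integer coordinate which every group element changes by a bounded amount
is finite.
(4) Every finitely presented periodic group of bounded-displacement permutations of the integers
is finite.
(5) For every homeomorphism `φ` of every topological space, every finitely presented periodic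
subgroup of the topological full group of `φ` is finite. -/
theorem result :
    (∀ (G : Type) [Group G], Group.IsFinitelyPresented G → IsMulTorsion G →
      ∀ S : Finset G, Subgroup.closure (S : Set G) = ⊤ →
      ∀ (X : Type) [MulAction G X] (x : X) (B : ℕ → Set X) (C : ℕ),
      (∀ i, B (i + 1) ⊆ B i) → ⋂ i, B i = ∅ → (∀ i, ∃ g : G, g • x ∈ B i) →
      ∃ i, (C : ℕ∞) < {y | y ∈ B i ∧ ∃ s ∈ S, s • y ∉ B i ∨ s⁻¹ • y ∉ B i}.encard) ∧
    (∀ (G : Type) [Group G], Group.IsFinitelyPresented G → IsMulTorsion G →
      ∀ S : Finset G, Subgroup.closure (S : Set G) = ⊤ →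
      ∀ (X : Type) [MulAction G X] (x : X), (MulAction.orbit G x).Infinite →
      ∀ C : ℕ, ∃ r₀, ∀ r ≥ r₀,
        (C : ℕ∞) < (sball (S : Set G) x (r + 1) \ sball (S : Set G) x r).encard) ∧
    (∀ (G : Type) [Group G], Group.IsFinitelyPresented G → IsMulTorsion G →
      ∀ S : Finset G, Subgroup.closure (S : Set G) = ⊤ →
      ∀ (X : Type) [MulAction G X] [FaithfulSMul G X] (C : ℕ),
      (∀ (x : X) (r : ℕ), (sball (S : Set G) x r).encard ≤ C * (r + 1)) → Finite G) ∧
    (∀ (X : Type) (o : X → ℤ) (C : ℕ),
      (∀ n : ℤ, ∃ t : Finset X, t.card ≤ C ∧ ∀ x, o x = n → x ∈ t) →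
      ∀ S : Subgroup (Equiv.Perm X), (∀ g ∈ S, ∃ N : ℤ, ∀ x, |o (g x) - o x| ≤ N) →
        Group.IsFinitelyPresented S → IsMulTorsion S → Finite S) ∧
    (∀ S : Subgroup (Equiv.Perm ℤ), (∀ g ∈ S, ∃ N : ℤ, ∀ i, |g i - i| ≤ N) →
      Group.IsFinitelyPresented S → IsMulTorsion S → Finite S) ∧
    (∀ (X : Type) [TopologicalSpace X] (φ : X ≃ₜ X) (S : Subgroup (X ≃ₜ X)),
      (∀ g ∈ S, InFullGroup φ g) →
      Group.IsFinitelyPresented S → IsMulTorsion S → Finite S) := by
  refine ⟨?_, ?_, ?_, ?_, ?_, ?_⟩
  · intro G _ hfp htors S hS X _ x B C hanti hinter hmeet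
    exact thm_thin_end G hfp htors S hS X x B C hanti hinter hmeet
  · intro G _ hfp htors S hS X _ x hinf C
    exact thm_spheres G hfp htors S hS X x hinf C
  · intro G _ hfp htors S hS X _ _ C hlin
    exact thm_linear G hfp htors S hS X C hlin
  · intro X o C hC S hb hfp htors
    exact thm_quasi_line X o C hC S hfp htors S.subtype Subtype.val_injective
      (fun g => hb g.1 g.2)
  · intro S hb hfp htors
    refine thm_quasi_line ℤ id 1 ?_ S hfp htors S.subtype Subtype.val_injective
      (fun g => hb g.1 g.2)
    intro n
    exact ⟨{n}, by simp, fun x hx => by simpa using hx⟩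
  · intro X _ φ S hSφ hfp htors
    exact thm_full_group X φ S hSφ hfp htors

end Vale.Agent.Results.P192.A0_ThinSchreier
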