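import Vale.Agent.P192.Pump.TreeT

namespace Vale.Agent.Results.P192.A1_TreeWobbling

/-- (1) Let `T` be a tree all of whose vertices have at most `Δ` neighbours and let `f : X → V(T)`
be a map all of whose fibres have at most `C` points.  Every finitely presented periodic group `S`
of permutations of `X` each of which moves `f` a bounded distance in `T` is finite.
(2) In particular every finitely presented periodic group of bounded-displacement permutations of
the vertex set of `T` is finite. -/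
theorem result :
    (∀ (V X : Type) (T : SimpleGraph V) (Δ C : ℕ) (f : X → V), T.IsTree →
      (∀ v, ∃ t : Finset V, t.card ≤ Δ ∧ ∀ w, T.Adj v w → w ∈ t) →
      (∀ v, ∃ t : Finset X, t.card ≤ C ∧ ∀ x, f x = v → x ∈ t) →
      ∀ S : Subgroup (Equiv.Perm X), (∀ g ∈ S, ∃ N : ℕ, ∀ x, T.dist (f x) (f (g x)) ≤ N) →
        Group.IsFinitelyPresented S → IsMulTorsion S → Finite S) ∧
    (∀ (V : Type) (T : SimpleGraph V) (Δ : ℕ), T.IsTree →
      (∀ v, ∃ t : Finset V, t.card ≤ Δ ∧ ∀ w, T.Adj v w → w ∈ t) →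
      ∀ S : Subgroup (Equiv.Perm V), (∀ g ∈ S, ∃ N : ℕ, ∀ v, T.dist v (g v) ≤ N) →
        Group.IsFinitelyPresented S → IsMulTorsion S → Finite S) := by
  have main : ∀ (V X : Type) (T : SimpleGraph V) (Δ C : ℕ) (f : X → V), T.IsTree →
      (∀ v, ∃ t : Finset V, t.card ≤ Δ ∧ ∀ w, T.Adj v w → w ∈ t) →
      (∀ v, ∃ t : Finset X, t.card ≤ C ∧ ∀ x, f x = v → x ∈ t) →
      ∀ S : Subgroup (Equiv.Perm X), (∀ g ∈ S, ∃ N : ℕ, ∀ x, T.dist (f x) (f (g x)) ≤ N) →
        Group.IsFinitelyPresented S → IsMulTorsion S → Finite S := by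
    intro V X T Δ C f hT hdeg hC S hb hfp htors
    exact Vale.Agent.P192.Pump.torsion_tree_fibred V X T hT Δ hdeg C f hC S hfp htors S.subtype
      Subtype.val_injective (fun g => hb g.1 g.2)
  refine ⟨main, ?_⟩
  intro V T Δ hT hdeg S hb hfp htors
  refine main V V T Δ 1 id hT hdeg ?_ S hb hfp htors
  intro v
  exact ⟨{v}, by simp, fun x hx => by simpa using hx⟩

end Vale.Agent.Results.P192.A1_TreeWobbling
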