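import Vale.Agent.P192.Embed

universe u

theorem Vale.Agent.Results.P192.EmbedTwoGen.result (G : Type u) [Group G]
    [Group.IsFinitelyPresented G] (hG : IsMulTorsion G) :
    ∃ (H : Type u) (_ : Group H), Group.IsFinitelyPresented H ∧ IsMulTorsion H ∧
      (∃ a b : H, Subgroup.closure {a, b} = ⊤) ∧ ∃ f : G →* H, Function.Injective f :=
  Vale.Agent.P192.embed_two_generated G hG
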