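import Vale.Agent.P192.Embed

theorem Vale.Agent.Results.P192.ReduceTwoGen.result :
    (∀ (G : Type) [Group G], Group.IsFinitelyPresented G → IsMulTorsion G → Finite G) ↔
    (∀ R : Set (FreeGroup (Fin 2)), R.Finite → IsMulTorsion (PresentedGroup R) →
      Finite (PresentedGroup R)) := by
  constructor
  · intro h R hR hT
    have : Finite R := hR
    exact h (PresentedGroup R) inferInstance hT
  · intro h G _ hfp hT
    obtain ⟨H, _, hHfp, hHT, ⟨a, b, hab⟩, f, hf⟩ := Vale.Agent.P192.embed_two_generated G hT
    obtain ⟨R, hR, ⟨e⟩⟩ := Vale.Agent.P192.exists_presentation_two_gen a b hab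
    have h1 : IsMulTorsion (PresentedGroup R) :=
      IsMulTorsion.of_surjective (f := e.symm.toMonoidHom) e.symm.surjective hHT
    have h2 : Finite (PresentedGroup R) := h R hR h1
    have h3 : Finite H := Finite.of_equiv _ e.toEquiv
    exact Finite.of_injective f hf
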